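import Vale.Agent.P032.H475.W.M22
import Vale.Agent.P032.H475.W.M30
import Vale.Agent.P032.Words6.H358.TreeD

/-!
# P032: trees of modes over the box tables
-/

namespace Vale.Agent.P032.H475.W

open Vale.Agent.P032.Words.Trie Vale.Agent.P032.Words6.H46 Vale.Agent.P032.Words6.H358

theorem tree22 : TreeOK [3, 5, 10, 20, 40, 48] :=
  treeOK_of_three (c := 7)
    ⟨F22a.D, F22a.tab, by decide +kernel, by decide +kernel, rfl⟩
    ⟨F22b.D, F22b.tab, by decide +kernel, by decide +kernel, rfl⟩
    ⟨F22t.D, F22t.tab, by decide +kernel, by decide +kernel, rfl⟩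

theorem tree30 : TreeOK [3, 5, 9, 18, 34, 20, 40] :=
  treeOK_of_three (c := 13)
    ⟨F30a.D, F30a.tab, by decide +kernel, by decide +kernel, rfl⟩
    ⟨F30b.D, F30b.tab, by decide +kernel, by decide +kernel, rfl⟩
    ⟨F30t.D, F30t.tab, by decide +kernel, by decide +kernel, rfl⟩

end Vale.Agent.P032.H475.W
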