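import Vale.Agent.P032.H475.W.M28
import Vale.Agent.P032.H475.W.M34
import Vale.Agent.P032.Words6.H358.TreeD

/-!
# P032: trees of modes over the box tables
-/

namespace Vale.Agent.P032.H475.W

open Vale.Agent.P032.Words.Trie Vale.Agent.P032.Words6.H46 Vale.Agent.P032.Words6.H358

theorem tree28 : TreeOK [3, 5, 9, 6, 18, 40, 48] :=
  treeOK_of_three (c := 7)
    ⟨F28a.D, F28a.tab, by decide +kernel, by decide +kernel, rfl⟩
    ⟨F28b.D, F28b.tab, by decide +kernel, by decide +kernel, rfl⟩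
    ⟨F28t.D, F28t.tab, by decide +kernel, by decide +kernel, rfl⟩

theorem tree34 : TreeOK [3, 5, 9, 6, 18, 24, 40, 48] :=
  treeOK_of_three (c := 7)
    ⟨F34a.D, F34a.tab, by decide +kernel, by decide +kernel, rfl⟩
    ⟨F34b.D, F34b.tab, by decide +kernel, by decide +kernel, rfl⟩
    ⟨F34t.D, F34t.tab, by decide +kernel, by decide +kernel, rfl⟩

end Vale.Agent.P032.H475.W
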