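import Vale.Agent.P032.H475.W.P7
import Vale.Agent.P032.H475.W.P8
import Vale.Agent.P032.H475.W.P9
import Vale.Agent.P032.H475.W.P10
import Vale.Agent.P032.H475.W.P11
import Vale.Agent.P032.H475.W.P12
import Vale.Agent.P032.Words6.H358.TreeD

/-!
# P032: leaves of the tree of modes of the prism
-/

namespace Vale.Agent.P032.H475.W

open Vale.Agent.P032.Words.Trie Vale.Agent.P032.Words6.H46 Vale.Agent.P032.Words6.H358

theorem leaf7 : LeafOK [3, 5, 9, 6, 18, 36, 24, 40, 48]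
    [(7, 0), (11, 1), (22, 1), (26, 0), (13, 0), (19, 2)] :=
  ⟨F35_7.D, F35_7.tab, by decide +kernel, by decide +kernel, rfl⟩

theorem leaf8 : LeafOK [3, 5, 9, 6, 18, 36, 24, 40, 48]
    [(7, 0), (11, 1), (22, 1), (26, 0), (13, 1), (25, 0)] :=
  ⟨F35_8.D, F35_8.tab, by decide +kernel, by decide +kernel, rfl⟩

theorem leaf9 : LeafOK [3, 5, 9, 6, 18, 36, 24, 40, 48]
    [(7, 0), (11, 1), (22, 1), (26, 0), (13, 1), (25, 1)] :=
  ⟨F35_9.D, F35_9.tab, by decide +kernel, by decide +kernel, rfl⟩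

theorem leaf10 : LeafOK [3, 5, 9, 6, 18, 36, 24, 40, 48]
    [(7, 0), (11, 1), (22, 1), (26, 0), (13, 1), (25, 2)] :=
  ⟨F35_10.D, F35_10.tab, by decide +kernel, by decide +kernel, rfl⟩

theorem leaf11 : LeafOK [3, 5, 9, 6, 18, 36, 24, 40, 48]
    [(7, 0), (11, 1), (22, 1), (26, 0), (13, 2)] :=
  ⟨F35_11.D, F35_11.tab, by decide +kernel, by decide +kernel, rfl⟩

theorem leaf12 : LeafOK [3, 5, 9, 6, 18, 36, 24, 40, 48]
    [(7, 0), (11, 1), (22, 1), (26, 1)] :=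
  ⟨F35_12.D, F35_12.tab, by decide +kernel, by decide +kernel, rfl⟩

end Vale.Agent.P032.H475.W
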