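import Vale.Agent.P032.H475.W.P13
import Vale.Agent.P032.H475.W.P14
import Vale.Agent.P032.H475.W.P15
import Vale.Agent.P032.H475.W.P16
import Vale.Agent.P032.H475.W.P17
import Vale.Agent.P032.H475.W.P18
import Vale.Agent.P032.Words6.H358.TreeD

/-!
# P032: leaves of the tree of modes of the prism
-/

namespace Vale.Agent.P032.H475.W

open Vale.Agent.P032.Words.Trie Vale.Agent.P032.Words6.H46 Vale.Agent.P032.Words6.H358

theorem leaf13 : LeafOK [3, 5, 9, 6, 18, 36, 24, 40, 48]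
    [(7, 0), (11, 1), (22, 1), (26, 2)] :=
  ⟨F35_13.D, F35_13.tab, by decide +kernel, by decide +kernel, rfl⟩

theorem leaf14 : LeafOK [3, 5, 9, 6, 18, 36, 24, 40, 48]
    [(7, 0), (11, 1), (22, 2)] :=
  ⟨F35_14.D, F35_14.tab, by decide +kernel, by decide +kernel, rfl⟩

theorem leaf15 : LeafOK [3, 5, 9, 6, 18, 36, 24, 40, 48]
    [(7, 0), (11, 2)] :=
  ⟨F35_15.D, F35_15.tab, by decide +kernel, by decide +kernel, rfl⟩

theorem leaf16 : LeafOK [3, 5, 9, 6, 18, 36, 24, 40, 48]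
    [(7, 1), (11, 0), (26, 0)] :=
  ⟨F35_16.D, F35_16.tab, by decide +kernel, by decide +kernel, rfl⟩

theorem leaf17 : LeafOK [3, 5, 9, 6, 18, 36, 24, 40, 48]
    [(7, 1), (11, 0), (26, 1), (22, 0), (13, 0), (19, 0)] :=
  ⟨F35_17.D, F35_17.tab, by decide +kernel, by decide +kernel, rfl⟩

theorem leaf18 : LeafOK [3, 5, 9, 6, 18, 36, 24, 40, 48]
    [(7, 1), (11, 0), (26, 1), (22, 0), (13, 0), (19, 1)] :=
  ⟨F35_18.D, F35_18.tab, by decide +kernel, by decide +kernel, rfl⟩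

end Vale.Agent.P032.H475.W
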