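import Vale.Agent.P032.H475.W.P19
import Vale.Agent.P032.H475.W.P20
import Vale.Agent.P032.H475.W.P21
import Vale.Agent.P032.H475.W.P22
import Vale.Agent.P032.H475.W.P23
import Vale.Agent.P032.H475.W.P24
import Vale.Agent.P032.Words6.H358.TreeD

/-!
# P032: leaves of the tree of modes of the prism
-/

namespace Vale.Agent.P032.H475.W

open Vale.Agent.P032.Words.Trie Vale.Agent.P032.Words6.H46 Vale.Agent.P032.Words6.H358

theorem leaf19 : LeafOK [3, 5, 9, 6, 18, 36, 24, 40, 48]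
    [(7, 1), (11, 0), (26, 1), (22, 0), (13, 0), (19, 2)] :=
  ⟨F35_19.D, F35_19.tab, by decide +kernel, by decide +kernel, rfl⟩

theorem leaf20 : LeafOK [3, 5, 9, 6, 18, 36, 24, 40, 48]
    [(7, 1), (11, 0), (26, 1), (22, 0), (13, 1), (25, 0)] :=
  ⟨F35_20.D, F35_20.tab, by decide +kernel, by decide +kernel, rfl⟩

theorem leaf21 : LeafOK [3, 5, 9, 6, 18, 36, 24, 40, 48]
    [(7, 1), (11, 0), (26, 1), (22, 0), (13, 1), (25, 1)] :=
  ⟨F35_21.D, F35_21.tab, by decide +kernel, by decide +kernel, rfl⟩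

theorem leaf22 : LeafOK [3, 5, 9, 6, 18, 36, 24, 40, 48]
    [(7, 1), (11, 0), (26, 1), (22, 0), (13, 1), (25, 2)] :=
  ⟨F35_22.D, F35_22.tab, by decide +kernel, by decide +kernel, rfl⟩

theorem leaf23 : LeafOK [3, 5, 9, 6, 18, 36, 24, 40, 48]
    [(7, 1), (11, 0), (26, 1), (22, 0), (13, 2)] :=
  ⟨F35_23.D, F35_23.tab, by decide +kernel, by decide +kernel, rfl⟩

theorem leaf24 : LeafOK [3, 5, 9, 6, 18, 36, 24, 40, 48]
    [(7, 1), (11, 0), (26, 1), (22, 1)] :=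
  ⟨F35_24.D, F35_24.tab, by decide +kernel, by decide +kernel, rfl⟩

end Vale.Agent.P032.H475.W
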