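import Vale.Agent.P032.H475.W.P25
import Vale.Agent.P032.H475.W.P26
import Vale.Agent.P032.H475.W.P27
import Vale.Agent.P032.H475.W.P28
import Vale.Agent.P032.H475.W.P29
import Vale.Agent.P032.Words6.H358.TreeD

/-!
# P032: leaves of the tree of modes of the prism
-/

namespace Vale.Agent.P032.H475.W

open Vale.Agent.P032.Words.Trie Vale.Agent.P032.Words6.H46 Vale.Agent.P032.Words6.H358

theorem leaf25 : LeafOK [3, 5, 9, 6, 18, 36, 24, 40, 48]
    [(7, 1), (11, 0), (26, 1), (22, 2)] :=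
  ⟨F35_25.D, F35_25.tab, by decide +kernel, by decide +kernel, rfl⟩

theorem leaf26 : LeafOK [3, 5, 9, 6, 18, 36, 24, 40, 48]
    [(7, 1), (11, 0), (26, 2)] :=
  ⟨F35_26.D, F35_26.tab, by decide +kernel, by decide +kernel, rfl⟩

theorem leaf27 : LeafOK [3, 5, 9, 6, 18, 36, 24, 40, 48]
    [(7, 1), (11, 1), (22, 0)] :=
  ⟨F35_27.D, F35_27.tab, by decide +kernel, by decide +kernel, rfl⟩

theorem leaf28 : LeafOK [3, 5, 9, 6, 18, 36, 24, 40, 48]
    [(7, 1), (11, 1), (22, 1)] :=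
  ⟨F35_28.D, F35_28.tab, by decide +kernel, by decide +kernel, rfl⟩

theorem leaf29 : LeafOK [3, 5, 9, 6, 18, 36, 24, 40, 48]
    [(7, 1), (11, 1), (22, 2)] :=
  ⟨F35_29.D, F35_29.tab, by decide +kernel, by decide +kernel, rfl⟩

end Vale.Agent.P032.H475.W
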