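import Vale.Agent.P032.H475.W.P30
import Vale.Agent.P032.H475.W.P31
import Vale.Agent.P032.H475.W.P32
import Vale.Agent.P032.H475.W.P33
import Vale.Agent.P032.Words6.H358.TreeD

/-!
# P032: leaves of the tree of modes of the prism
-/

namespace Vale.Agent.P032.H475.W

open Vale.Agent.P032.Words.Trie Vale.Agent.P032.Words6.H46 Vale.Agent.P032.Words6.H358

theorem leaf30 : LeafOK [3, 5, 9, 6, 18, 36, 24, 40, 48]
    [(7, 1), (11, 2)] :=
  ⟨F35_30.D, F35_30.tab, by decide +kernel, by decide +kernel, rfl⟩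

theorem leaf31 : LeafOK [3, 5, 9, 6, 18, 36, 24, 40, 48]
    [(7, 2), (11, 0)] :=
  ⟨F35_31.D, F35_31.tab, by decide +kernel, by decide +kernel, rfl⟩

theorem leaf32 : LeafOK [3, 5, 9, 6, 18, 36, 24, 40, 48]
    [(7, 2), (11, 1)] :=
  ⟨F35_32.D, F35_32.tab, by decide +kernel, by decide +kernel, rfl⟩

theorem leaf33 : LeafOK [3, 5, 9, 6, 18, 36, 24, 40, 48]
    [(7, 2), (11, 2)] :=
  ⟨F35_33.D, F35_33.tab, by decide +kernel, by decide +kernel, rfl⟩

end Vale.Agent.P032.H475.W
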