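import Vale.Agent.P032.H475.W.TP1
import Vale.Agent.P032.H475.W.TP2
import Vale.Agent.P032.H475.W.TP3
import Vale.Agent.P032.H475.W.TP4
import Vale.Agent.P032.H475.W.TP5
import Vale.Agent.P032.H475.W.TP6
import Vale.Agent.P032.H475.W.TM1
import Vale.Agent.P032.H475.W.TM2
import Vale.Agent.P032.H475.W.TM3
import Vale.Agent.P032.Words6.H229.Comp
import Vale.Agent.P032.Words6.H122.All35

/-!
# P032: the table of all graphs (over the fast checks)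
-/

noncomputable section

namespace Vale.Agent.P032.H475.W

open Vale.Agent.P032.Words.Trie Vale.Agent.P032.Words6 Vale.Agent.P032.Words6.H46
  Vale.Agent.P032.Words6.H358

theorem tree35 : TreeOK [3, 5, 9, 6, 18, 36, 24, 40, 48] :=
  treeOK_35 (List.forall_mem_cons.2 ⟨leaf1, List.forall_mem_cons.2 ⟨leaf2, List.forall_mem_cons.2 ⟨leaf3,
    List.forall_mem_cons.2 ⟨leaf4, List.forall_mem_cons.2 ⟨leaf5, List.forall_mem_cons.2 ⟨leaf6,
    List.forall_mem_cons.2 ⟨leaf7, List.forall_mem_cons.2 ⟨leaf8, List.forall_mem_cons.2 ⟨leaf9,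
    List.forall_mem_cons.2 ⟨leaf10, List.forall_mem_cons.2 ⟨leaf11, List.forall_mem_cons.2 ⟨leaf12,
    List.forall_mem_cons.2 ⟨leaf13, List.forall_mem_cons.2 ⟨leaf14, List.forall_mem_cons.2 ⟨leaf15,
    List.forall_mem_cons.2 ⟨leaf16, List.forall_mem_cons.2 ⟨leaf17, List.forall_mem_cons.2 ⟨leaf18,
    List.forall_mem_cons.2 ⟨leaf19, List.forall_mem_cons.2 ⟨leaf20, List.forall_mem_cons.2 ⟨leaf21,
    List.forall_mem_cons.2 ⟨leaf22, List.forall_mem_cons.2 ⟨leaf23, List.forall_mem_cons.2 ⟨leaf24,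
    List.forall_mem_cons.2 ⟨leaf25, List.forall_mem_cons.2 ⟨leaf26, List.forall_mem_cons.2 ⟨leaf27,
    List.forall_mem_cons.2 ⟨leaf28, List.forall_mem_cons.2 ⟨leaf29, List.forall_mem_cons.2 ⟨leaf30,
    List.forall_mem_cons.2 ⟨leaf31, List.forall_mem_cons.2 ⟨leaf32, List.forall_mem_cons.2 ⟨leaf33,
    List.forall_mem_nil _⟩⟩⟩⟩⟩⟩⟩⟩⟩⟩⟩⟩⟩⟩⟩⟩⟩⟩⟩⟩⟩⟩⟩⟩⟩⟩⟩⟩⟩⟩⟩⟩⟩)

/-- the tables of all graphs -/
theorem tab35 : ∀ L ∈ H122.Lets35, H358.TreeOK L :=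
  H122.map_LC ▸ H122.all35_of tree22 tree28 tree30 tree32 tree33 tree34 tree35

end Vale.Agent.P032.H475.W
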